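import Vale.Agent.P207.H387.K.Es

/-!
# P207, THEOREM Q'' (only `b < 2 a`): smooth sections have values in the S-bundle, closure form
-/

set_option linter.all false

open Metric Set Filter Topology
open scoped ContDiff Nat

noncomputable section

namespace Vale.Agent.P207.H387.Q4

open Vale.Agent.P207.H686 (ZDk Ch)
open Vale.Agent.P207.H387
open Vale.Agent.P207.H387.K
open Vale.Agent.P207.H387.K.SBk
open Vale.Agent.P207.H387.SBd (eval_bound smooth_eval ev_sub unif_of_bound)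
open Vale.Agent.P207.H7 (iter_comp_right iter_comp_left iter_eval)
open Vale.Agent.P207.N3.H790 (tay ray_taylor)

variable {k0 : ℕ} {E W X : Type} [NormedAddCommGroup E] [NormedSpace ℝ E] [FiniteDimensional ℝ E]
  [NormedAddCommGroup W] [NormedSpace ℝ W] [FiniteDimensional ℝ W]

/-- **(C1) for affine sections, closure form, order `i`** -/
def AfC (D : ZDk k0 E W X) (i : ℕ) : Prop :=
  ∀ (w : X) (s : W) (T : E →L[ℝ] W) (f : ℕ → E → ℝ) (K' : ℝ),
    (∀ n, ContDiffOn ℝ ∞ (f n) (ball 0 1)) →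
    (∀ n, ∀ x ∈ ball (0 : E) 1, ‖iteratedFDeriv ℝ i (f n) x‖ ≤ K') →
    TendstoUniformlyOn f (fun x => D.N w x (s + T x)) atTop (ball 0 1) →
    s ∈ D.Sm w ∧ ∀ u, T u ∈ D.Sm w

theorem ev_affine {c : Cf E W 4} (h2 : c 2 = 0) (h3 : c 3 = 0) :
    ∃ T : E →L[ℝ] W, ∀ x, ev c x = ev c 0 + T x := by
  have h1 : ∀ x, ev c x = c 0 (fun _ => x) + c 1 (fun _ => x) := by
    intro x
    unfold ev
    rw [Fin.sum_univ_four, h2, h3]
    simp
  have h0 : ∀ x, c 0 (fun _ => x) = c 0 (fun _ => 0) := by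
    intro x
    congr 1
    funext j
    exact absurd j.2 (by simp)
  let j0 : Fin ((1 : Fin 4) : ℕ) := ⟨0, by decide⟩
  have hj : ∀ j : Fin ((1 : Fin 4) : ℕ), j = j0 := by
    intro j
    apply Fin.ext
    have hlt : (j : ℕ) < 1 := j.2
    show (j : ℕ) = 0
    omega
  refine ⟨(c 1).toContinuousLinearMap (fun _ => 0) j0, fun x => ?_⟩
  have e1 : (c 1).toContinuousLinearMap (fun _ => 0) j0 x = c 1 (fun _ => x) := by
    show c 1 (Function.update (fun _ => 0) j0 x) = _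
    congr 1
    funext j
    rw [hj j, Function.update_self]
  have e2 : c 1 (fun _ => (0 : E)) = 0 := (c 1).map_coord_zero j0 rfl
  rw [e1, h1 x, h1 0, e2, h0 x, add_zero]

section

variable {D : ZDk k0 E W X} (H : SBk D)

include H in
/-- **smooth sections with smooth pairing have values in the S-bundle** -/
theorem es4 {i : ℕ} (h4 : D.lam ^ 4 * D.Lam < 1) (hA : AfC D i) (hok : Ok D 4 i) {v : X} {σ : E → W} {ρ : ℝ} (hρ : 0 < ρ) (hρ1 : ρ ≤ 1)
    (hσ : ContDiffOn ℝ ∞ σ (ball 0 ρ)) {M : ℕ → ℝ}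
    (hM : ∀ j, ∀ x ∈ ball (0 : E) ρ, ‖iteratedFDeriv ℝ j σ x‖ ≤ M j) {f : ℕ → E → ℝ} {K0 : ℝ}
    (hf : ∀ n, SD i K0 ρ (f n))
    (hlim : TendstoUniformlyOn f (fun x => D.N v x (σ x)) atTop (ball 0 ρ)) :
    σ 0 ∈ D.Sm v := by
  by_contra hns
  have hs0 : 0 < ‖prj (D.Sm v) (σ 0)‖ := norm_pos_iff.2 fun h => hns (prj_eq_zero _ h)
  set s0 := ‖prj (D.Sm v) (σ 0)‖ with hs0def
  obtain ⟨KP, hKP⟩ := H.ph_pair i M
  have hg : ∀ m, SD i (K0 + KP) ρ (fun x => f m x - Ph D v x (σ x)) := fun m =>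
    (hf m).sub (hKP v σ ρ hρ1 hσ hM)
  have hK0 : 0 ≤ K0 + KP := (norm_nonneg _).trans ((hg 0).2 0 (mem_ball_self hρ))
  set K1 := K0 + KP with hK1
  set P : Cf E W 4 := tc 4 σ with hP
  have hPsy : Sy P := sy_tc 4 hρ hσ
  have hM4 : 0 ≤ M 4 := (norm_nonneg _).trans (hM 4 0 (mem_ball_self hρ))
  have hPt : ∀ x ∈ ball (0 : E) ρ, ‖σ x - ev P x‖ ≤ M 4 * ‖x‖ ^ 4 := fun x hx => by
    rw [hP, ev_tc]
    exact ray_taylor 4 hσ (hM 4) x hx
  have hP0 : ev P 0 = σ 0 := by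
    have := hPt 0 (mem_ball_self hρ)
    rw [norm_zero, zero_pow (by norm_num), mul_zero] at this
    exact (sub_eq_zero.1 (norm_le_zero_iff.1 this)).symm
  obtain ⟨K, hK, hrec⟩ := H.recur hok
  have hl0 := D.lam0
  have hl1 := D.lam1
  have hL1 := D.Lam1
  have hc := one_le_cW W
  have hDK : 0 ≤ D.K := (norm_nonneg _).trans (D.bd v 0 (by simp))
  obtain ⟨n0, hn0⟩ : ∃ n0 : ℕ, D.lam ^ n0 ≤ ρ := (exists_pow_lt_of_lt_one hρ hl1).imp fun _ h => h.le
  choose A L w hch using fun n : ℕ => exists_ch (D := D) v (n + n0)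
  have hm : ∀ n : ℕ, ∃ m, ∀ x ∈ ball (0 : E) ρ, |D.N v x (σ x) - f m x| ≤ (D.lam ^ 4) ^ (n + n0) := by
    intro n
    have := (Metric.tendstoUniformlyOn_iff.1 hlim) ((D.lam ^ 4) ^ (n + n0)) (by positivity)
    obtain ⟨m, hm⟩ := this.exists
    exact ⟨m, fun x hx => (hm x hx).le⟩
  choose m hm using hm
  have hlam : ∀ n : ℕ, D.lam ^ (n + n0) * 1 ≤ ρ := by
    intro n
    rw [mul_one]
    exact (pow_le_pow_of_le_one hl0.le hl1.le (Nat.le_add_left _ _)).trans hn0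
  have hall := fun n => hrec (hch n) P 1 le_rfl (fun x => f (m n) x - Ph D v x (σ x)) K1 hK0
    ((hg (m n)).mono le_rfl (hlam n))
  choose G hGs hGe using hall
  set Q : ℕ → Cf E W 4 := fun n => pp D (A n) (L n) (w n) P with hQdef
  have hQ : ∀ n, s0 ≤ cW W * D.Lam ^ (n + n0) * ‖Q n‖ := by
    intro n
    have h1 := H.prj_le (hch n) (σ 0)
    have h2 : ev (Q n) 0 = prj (D.Sm (w n)) (L n (σ 0)) := by
      rw [hQdef]
      simp only [ev_pp, map_zero, hP0]
    rw [← h2] at h1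
    exact h1.trans (by gcongr; exact norm_ev_zero_le _)
  have hQpos : ∀ n, 0 < ‖Q n‖ := by
    intro n
    by_contra hn
    have h0 : ‖Q n‖ = 0 := le_antisymm (not_lt.1 hn) (norm_nonneg _)
    have := hQ n
    rw [h0, mul_zero] at this
    linarith
  have hQinv : ∀ n, ‖Q n‖⁻¹ ≤ cW W * D.Lam ^ (n + n0) / s0 := by
    intro n
    have h1 : 1 ≤ cW W * D.Lam ^ (n + n0) * ‖Q n‖ / s0 := (one_le_div hs0).2 (hQ n)
    have h2 := hQpos n
    calc ‖Q n‖⁻¹ = ‖Q n‖⁻¹ * 1 := (mul_one _).symm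
      _ ≤ ‖Q n‖⁻¹ * (cW W * D.Lam ^ (n + n0) * ‖Q n‖ / s0) := by gcongr
      _ = cW W * D.Lam ^ (n + n0) / s0 := by field_simp
  set q : ℝ := D.lam ^ 4 * D.Lam with hq
  have hq0 : 0 < q := by positivity
  have hq1 : q < 1 := h4
  have hqn : ∀ n : ℕ, (D.lam ^ 4) ^ (n + n0) * D.Lam ^ (n + n0) = q ^ (n + n0) := fun n => by
    rw [hq, mul_pow]
  set p : ℕ → Cf E W 4 := fun n => (‖Q n‖)⁻¹ • Q n with hp
  have hp1 : ∀ n, ‖p n‖ = 1 := by
    intro n
    rw [hp]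
    simp only [norm_smul, norm_inv, norm_norm]
    exact inv_mul_cancel₀ (hQpos n).ne'
  have hp2 : ∀ n, Sy (p n) := fun n => ((hPsy.psh _ _)).smul _
  have hp3 : ∀ n, psh (prj (D.Sm (w n))) (ContinuousLinearMap.id ℝ E) (p n) = p n := by
    intro n
    have h1 := pp_prj (D := D) (A n) (L n) (w n) P
    funext j
    have h2 := congrFun h1 j
    have h3 : psh (prj (D.Sm (w n))) (ContinuousLinearMap.id ℝ E) (p n) j =
        ‖Q n‖⁻¹ • psh (prj (D.Sm (w n))) (ContinuousLinearMap.id ℝ E) (Q n) j := by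
      ext u
      show prj (D.Sm (w n)) (‖Q n‖⁻¹ • (Q n j) fun a => (ContinuousLinearMap.id ℝ E) (u a)) = _
      rw [map_smul]
      rfl
    rw [h3]
    show ‖Q n‖⁻¹ • psh (prj (D.Sm (w n))) (ContinuousLinearMap.id ℝ E) (Q n) j = ‖Q n‖⁻¹ • Q n j
    rw [show psh (prj (D.Sm (w n))) (ContinuousLinearMap.id ℝ E) (Q n) j = Q n j from h2]
  obtain ⟨w', θ, p', hθ, hN, hpl, hp'1, hp'2, hperp⟩ := H.extract w p hp1 hp2 hp3
  have hθn : ∀ n, n ≤ θ n := hθ.id_le
  have hqlim : Tendsto (fun n : ℕ => q ^ (θ n + n0)) atTop (𝓝 0) := by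
    have h1 : Tendsto (fun n : ℕ => θ n + n0) atTop atTop :=
      tendsto_atTop_mono (fun n => (hθn n).trans (Nat.le_add_right _ _)) tendsto_id
    exact (tendsto_pow_atTop_nhds_zero_of_lt_one hq0.le hq1).comp h1
  -- the limit polynomial is affine
  have hhigh : ∀ j : Fin 4, 2 ≤ (j : ℕ) → p' j = 0 := by
    intro j hj
    have h1 : ∀ n, ‖p n j‖ ≤ (cW W * (cW W * ‖P‖) / s0) * q ^ (n + n0) := by
      intro n
      have e1 : ‖p n j‖ = ‖Q n‖⁻¹ * ‖Q n j‖ := by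
        rw [hp]
        show ‖‖Q n‖⁻¹ • Q n j‖ = _
        rw [norm_smul, norm_inv, norm_norm]
      have h2 : ‖Q n j‖ ≤ cW W * (D.lam ^ 2) ^ (n + n0) * (‖P‖ * (D.lam ^ (n + n0)) ^ 2) := by
        refine (norm_psh _ _ P j).trans ?_
        have a1 : ‖prj (D.Sm (w n)) ∘L (L n : W →L[ℝ] W)‖ ≤ cW W * (D.lam ^ 2) ^ (n + n0) := by
          refine (ContinuousLinearMap.opNorm_comp_le _ _).trans ?_
          have h6 : ‖(L n : W →L[ℝ] W)‖ ≤ (D.lam ^ 2) ^ (n + n0) :=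
            ContinuousLinearMap.opNorm_le_bound _ (by positivity) (H.ch_L (hch n))
          have h7 := norm_prj_le (D.Sm (w n))
          gcongr
        have a2 : ‖((A n).symm : E →L[ℝ] E)‖ ≤ D.lam ^ (n + n0) :=
          ContinuousLinearMap.opNorm_le_bound _ (by positivity) (ch_A (hch n))
        have a3 : ‖((A n).symm : E →L[ℝ] E)‖ ^ (j : ℕ) ≤ (D.lam ^ (n + n0)) ^ 2 := by
          calc ‖((A n).symm : E →L[ℝ] E)‖ ^ (j : ℕ) ≤ (D.lam ^ (n + n0)) ^ (j : ℕ) := by gcongr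
            _ ≤ (D.lam ^ (n + n0)) ^ 2 :=
              pow_le_pow_of_le_one (by positivity) (pow_le_one₀ hl0.le hl1.le) hj
        have a4 : ‖P j‖ ≤ ‖P‖ := norm_le_pi_norm P j
        gcongr
      rw [e1]
      calc ‖Q n‖⁻¹ * ‖Q n j‖ ≤ (cW W * D.Lam ^ (n + n0) / s0) *
            (cW W * (D.lam ^ 2) ^ (n + n0) * (‖P‖ * (D.lam ^ (n + n0)) ^ 2)) := by
            have := hQinv n
            exact mul_le_mul this h2 (norm_nonneg _) (by positivity)
        _ = (cW W * (cW W * ‖P‖) / s0) * ((D.lam ^ 4) ^ (n + n0) * D.Lam ^ (n + n0)) := by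
            have : (D.lam ^ 2) ^ (n + n0) * (D.lam ^ (n + n0)) ^ 2 = (D.lam ^ 4) ^ (n + n0) := by
              rw [← pow_mul, ← pow_mul, ← pow_mul, ← pow_add]; congr 1; ring
            rw [← this]
            ring
        _ = _ := by rw [hqn]
    have h2 : Tendsto (fun n => p (θ n) j) atTop (𝓝 (p' j)) := tendsto_pi_nhds.1 hpl j
    have h3 : Tendsto (fun n => p (θ n) j) atTop (𝓝 0) := by
      refine squeeze_zero_norm (fun n => h1 (θ n)) ?_
      have := hqlim.const_mul (cW W * (cW W * ‖P‖) / s0)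
      rwa [mul_zero] at this
    exact tendsto_nhds_unique h2 h3
  obtain ⟨T, hT⟩ := ev_affine (hhigh 2 (by decide)) (hhigh 3 (by decide))
  -- the pairings with the limit form are smooth
  have hmem : ev p' 0 ∈ D.Sm w' ∧ ∀ u, T u ∈ D.Sm w' := by
    refine hA w' (ev p' 0) T (fun n x => ‖Q (θ n)‖⁻¹ * G (θ n) x)
      (cW W / s0 * K1 + K) (fun n => ?_) (fun n x hx => ?_) ?_
    · exact contDiffOn_const.mul (hGs (θ n)).1
    · have h1 := ((hGs (θ n)).smul (‖Q (θ n)‖⁻¹)).2 x hx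
      refine h1.trans ?_
      have hpos := hQpos (θ n)
      rw [abs_of_nonneg (by positivity), mul_add]
      have h2 : ‖Q (θ n)‖⁻¹ * (K * ‖pp D (A (θ n)) (L (θ n)) (w (θ n)) P‖) = K := by
        have : ‖pp D (A (θ n)) (L (θ n)) (w (θ n)) P‖ = ‖Q (θ n)‖ := rfl
        rw [this]
        field_simp
      rw [h2]
      have h3 : ‖Q (θ n)‖⁻¹ * ((D.lam ^ i) ^ (θ n + n0) * K1) ≤ cW W / s0 * K1 := by
        have h4 : (D.lam ^ i) ^ (θ n + n0) ≤ (D.lam ^ 4) ^ (θ n + n0) := by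
          have : D.lam ^ i ≤ D.lam ^ 4 := pow_le_pow_of_le_one hl0.le hl1.le hok.2.2.1
          gcongr
        calc ‖Q (θ n)‖⁻¹ * ((D.lam ^ i) ^ (θ n + n0) * K1)
            ≤ (cW W * D.Lam ^ (θ n + n0) / s0) * ((D.lam ^ 4) ^ (θ n + n0) * K1) := by
              have := hQinv (θ n)
              gcongr
          _ = cW W / s0 * K1 * ((D.lam ^ 4) ^ (θ n + n0) * D.Lam ^ (θ n + n0)) := by ring
          _ = cW W / s0 * K1 * q ^ (θ n + n0) := by rw [hqn]
          _ ≤ cW W / s0 * K1 * 1 := by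
              have : q ^ (θ n + n0) ≤ 1 := pow_le_one₀ hq0.le hq1.le
              gcongr
          _ = cW W / s0 * K1 := mul_one _
      linarith
    · have hu := unif_pair hN hpl
      have hu' : TendstoUniformlyOn (fun n x => D.N (w (θ n)) x (ev (p (θ n)) x))
          (fun x => D.N w' x (ev p' 0 + T x)) atTop (ball 0 1) := by
        refine hu.congr_right fun x hx => ?_
        show D.N w' x (ev p' x) = D.N w' x (ev p' 0 + T x)
        rw [hT x]
      refine unif_of_bound (b := fun n => (cW W * (D.K * (cW W * M 4) + 1) / s0) * q ^ (θ n + n0))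
        ?_ (fun n x hx => ?_) hu'
      · have := hqlim.const_mul (cW W * (D.K * (cW W * M 4) + 1) / s0)
        rwa [mul_zero] at this
      · set N := θ n with hN'
        have hx1 : ‖x‖ ≤ 1 := (mem_ball_zero_iff.1 hx).le
        have hy : ‖(A N).symm x‖ ≤ D.lam ^ (N + n0) := by
          refine (ch_A (hch N) x).trans ?_
          calc D.lam ^ (N + n0) * ‖x‖ ≤ D.lam ^ (N + n0) * 1 := by gcongr
            _ = _ := mul_one _
        have hyρ : (A N).symm x ∈ ball (0 : E) ρ := by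
          rw [mem_ball_zero_iff]
          have hlt : ‖x‖ < 1 := mem_ball_zero_iff.1 hx
          calc ‖(A N).symm x‖ ≤ D.lam ^ (N + n0) * ‖x‖ := ch_A (hch N) x
            _ < D.lam ^ (N + n0) * 1 := by gcongr
            _ ≤ ρ := hlam N
        have hb := bracket (D := D) (P := P) (v := v) (σ := σ) (g := f (m N) ((A N).symm x))
          (δ := (D.lam ^ 4) ^ (N + n0)) (m := M 4 * ‖(A N).symm x‖ ^ 4)
          (ball_subset_ball hρ1 hyρ) (hPt _ hyρ) (hm N _ hyρ)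
        have he := hGe N x hx
        have e1 : D.N (w N) x (ev (p N) x) = ‖Q N‖⁻¹ * D.N (w N) x (ev (Q N) x) := by
          rw [hp]
          simp only [ev_smul, map_smul, smul_eq_mul]
        have e2 : ‖Q N‖⁻¹ * G N x - D.N (w N) x (ev (p N) x) = - (‖Q N‖⁻¹ *
            (D.N v ((A N).symm x) (prj (D.Sm v) (ev P ((A N).symm x))) -
              (f (m N) ((A N).symm x) - Ph D v ((A N).symm x) (σ ((A N).symm x))))) := by
          rw [e1]
          have : D.N (w N) x (ev (Q N) x) = _ := he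
          rw [this]
          ring
        rw [e2, abs_neg, abs_mul, abs_of_nonneg (by have := hQpos N; positivity)]
        have h5 : ‖(A N).symm x‖ ^ 4 ≤ (D.lam ^ 4) ^ (N + n0) := by
          calc ‖(A N).symm x‖ ^ 4 ≤ (D.lam ^ (N + n0)) ^ 4 := by gcongr
            _ = (D.lam ^ 4) ^ (N + n0) := by rw [← pow_mul, ← pow_mul, mul_comm]
        calc _ ≤ (cW W * D.Lam ^ (N + n0) / s0) *
              (D.K * (cW W * (M 4 * (D.lam ^ 4) ^ (N + n0))) + (D.lam ^ 4) ^ (N + n0)) := by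
              refine mul_le_mul (hQinv N) (hb.trans ?_) (abs_nonneg _) (by positivity)
              gcongr
          _ = (cW W * (D.K * (cW W * M 4) + 1) / s0) *
              ((D.lam ^ 4) ^ (N + n0) * D.Lam ^ (N + n0)) := by ring
          _ = _ := by rw [hqn]
  have hz' : p' = 0 := eq_zero_of_ev hp'2 one_pos fun x hx => by
    refine hperp x ?_
    rw [hT x]
    exact (D.Sm w').add_mem hmem.1 (hmem.2 x)
  rw [hz', norm_zero] at hp'1
  exact zero_ne_one hp'1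


include H in
/-- **(C1) for smooth sections, closure form**, at every point of the disc -/
theorem es4_at {i : ℕ} (h4 : D.lam ^ 4 * D.Lam < 1) (hA : AfC D i) (hok : Ok D 4 i) {v : X}
    {σ : E → W} (hσ : ContDiff ℝ ∞ σ) {F : ℕ → E → ℝ} {K' : ℝ} (hFs : ∀ n, SD i K' 1 (F n))
    (hFl : TendstoUniformlyOn F (fun x => D.N v x (σ x)) atTop (ball 0 1)) {x0 : E}
    (hx0 : x0 ∈ ball (0 : E) 1) : σ x0 ∈ D.Sm v := by
  obtain ⟨R, S, v', hBC⟩ := D.BC_ex v x0 hx0
  rw [H.bc hBC]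
  have hKb : 0 < D.Kb := lt_of_lt_of_le one_pos D.Kb1
  have hx0' : 0 < 1 - ‖x0‖ := by
    have := mem_ball_zero_iff.1 hx0
    linarith
  set ρ : ℝ := min 1 ((1 - ‖x0‖) / D.Kb) with hρ
  have hρ0 : 0 < ρ := lt_min one_pos (by positivity)
  have hρ1 : ρ ≤ 1 := min_le_left _ _
  have hin : ∀ y ∈ ball (0 : E) ρ, x0 + R.symm y ∈ ball (0 : E) 1 := by
    intro y hy
    rw [mem_ball_zero_iff] at hy ⊢
    have h1 := (D.BC_R hBC).2 y
    have h2 : ‖y‖ < (1 - ‖x0‖) / D.Kb := hy.trans_le (min_le_right _ _)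
    rw [lt_div_iff₀ hKb] at h2
    calc ‖x0 + R.symm y‖ ≤ ‖x0‖ + ‖R.symm y‖ := norm_add_le _ _
      _ ≤ ‖x0‖ + D.Kb * ‖y‖ := by gcongr
      _ < 1 := by linarith
  obtain ⟨e, he, heb, heq⟩ := D.BC_N hBC
  have hsub : ball (0 : E) ρ ⊆ {x | x ∈ ball (0 : E) 1 ∧ x0 + R.symm x ∈ ball (0 : E) 1} :=
    fun y hy => ⟨ball_subset_ball hρ1 hy, hin y hy⟩
  set τ : E → W := fun y => S (σ (x0 + R.symm y)) with hτ
  have hτs : ContDiff ℝ ∞ τ := by
    have h1 : ContDiff ℝ ∞ (fun y : E => x0 + R.symm y) := contDiff_const.add R.symm.contDiff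
    exact S.contDiff.comp (hσ.comp h1)
  obtain ⟨M, hM⟩ := exists_bounds hτs ρ
  have hτ0 : τ 0 = S (σ x0) := by
    rw [hτ]
    simp
  rw [← hτ0]
  set U : Set E := {z | z + x0 ∈ ball (0 : E) 1} with hU
  have hUo : IsOpen U := isOpen_ball.preimage (by fun_prop)
  have hmaps : MapsTo (R.symm : E →L[ℝ] E) (ball 0 ρ) U := by
    intro y hy
    show R.symm y + x0 ∈ ball (0 : E) 1
    rw [add_comm]
    exact hin y hy
  have hRn : ‖(R.symm : E →L[ℝ] E)‖ ≤ D.Kb :=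
    ContinuousLinearMap.opNorm_le_bound _ hKb.le (D.BC_R hBC).2
  have hF1 : ∀ n, SD i (|K'| * D.Kb ^ i) ρ (fun y => F n (R.symm y + x0)) := by
    intro n
    have hs : ContDiffOn ℝ ∞ (fun z => F n (z + x0)) U :=
      (hFs n).1.comp (contDiff_id.add contDiff_const).contDiffOn (fun z hz => hz)
    refine ⟨hs.comp (R.symm : E →L[ℝ] E).contDiff.contDiffOn hmaps, fun y hy => ?_⟩
    refine (iter_comp_right hUo (R.symm : E →L[ℝ] E) hs hmaps hy i).trans ?_
    rw [iteratedFDeriv_comp_add_right]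
    have h1 := ((hFs n).2 _ (hmaps hy)).trans (le_abs_self K')
    gcongr
  have he1 : SD i (∑ j ∈ Finset.range (i + 1), (i.choose j : ℝ) * D.M j * M (i - j)) ρ
      (fun y => e y (τ y)) := by
    have h1 : ContDiffOn ℝ ∞ e (ball 0 ρ) := he.mono hsub
    refine ⟨smooth_eval h1 hτs.contDiffOn, fun y hy => ?_⟩
    exact eval_bound isOpen_ball h1 hτs.contDiffOn
      (fun j _ z hz => heb j z (hsub hz).1 (hsub hz).2) (fun j _ z hz => hM j z hz) hy
  refine es4 H h4 hA hok hρ0 hρ1 hτs.contDiffOn hM (fun n => (hF1 n).add he1) ?_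
  rw [Metric.tendstoUniformlyOn_iff] at hFl ⊢
  intro ε' hε'
  filter_upwards [hFl ε' hε'] with n hn y hy
  have h1 := hn _ (hin y hy)
  have h2 := heq y (hsub hy).1 (hsub hy).2 (σ (x0 + R.symm y))
  rw [Real.dist_eq] at h1 ⊢
  have h3 : D.N v' y (τ y) = D.N v (x0 + R.symm y) (σ (x0 + R.symm y)) + e y (τ y) := h2
  rw [h3]
  have h4 : R.symm y + x0 = x0 + R.symm y := add_comm _ _
  rw [h4]
  have h5 : D.N v (x0 + R.symm y) (σ (x0 + R.symm y)) + e y (τ y) -
      (F n (x0 + R.symm y) + e y (τ y)) =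
      D.N v (x0 + R.symm y) (σ (x0 + R.symm y)) - F n (x0 + R.symm y) := by ring
  rw [h5]
  exact h1

end

end Vale.Agent.P207.H387.Q4
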