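import Vale.Agent.P207.H387.Q4.Es

/-!
# P207, THEOREM Q'' (only `b < 2 a`): the gap and LEMMA Q

The hypotheses: `D.lam ^ 4 * D.Lam < 1` and (C1) for affine sections, closure form (`AfC`).
-/

set_option linter.all false

open Metric Set Filter Topology
open scoped ContDiff Nat

noncomputable section

namespace Vale.Agent.P207.H387.Q4

open Vale.Agent.P207.H686 (ZDk Ch)
open Vale.Agent.P207.H387
open Vale.Agent.P207.H387.K
open Vale.Agent.P207.H387.K.SBk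
open Vale.Agent.P207.H387.SBd (eval_bound smooth_eval ev_sub unif_of_bound)
open Vale.Agent.P207.H7 (iter_comp_right iter_comp_left iter_eval)
open Vale.Agent.P207.N3.H790 (tay ray_taylor)

variable {k0 : ℕ} {E W X : Type} [NormedAddCommGroup E] [NormedSpace ℝ E] [FiniteDimensional ℝ E]
  [NormedAddCommGroup W] [NormedSpace ℝ W] [FiniteDimensional ℝ W]

theorem exists_ok_ge (D : ZDk k0 E W X) (k i0 : ℕ) : ∃ i, i0 ≤ i ∧ Ok D k i := by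
  have h1 : Tendsto (fun i : ℕ => D.lam ^ i * (cW W * D.Lam * D.mu ^ k)) atTop
      (𝓝 (0 * (cW W * D.Lam * D.mu ^ k))) :=
    (tendsto_pow_atTop_nhds_zero_of_lt_one D.lam0.le D.lam1).mul_const _
  rw [zero_mul] at h1
  have h2 := h1.eventually (ge_mem_nhds (show (0 : ℝ) < 1 / 2 by norm_num))
  obtain ⟨i, hi⟩ := (h2.and ((eventually_ge_atTop 3).and ((eventually_ge_atTop k0).and
    ((eventually_ge_atTop k).and (eventually_ge_atTop i0))))).exists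
  exact ⟨i, hi.2.2.2.2, hi.2.1, hi.2.2.1, hi.2.2.2.1, hi.1⟩

section

variable {D : ZDk k0 E W X} (H : SBk D)

include H in
/-- **the gap** -/
theorem gap {k i : ℕ} (h4 : D.lam ^ 4 * D.Lam < 1) (hA : AfC D i) (hk : 4 ≤ k) (hok : Ok D k i) (K' : ℝ) : ∃ η : ℝ, 0 < η ∧
    ∀ (v : X) (P : Cf E W k), Sy P → psh (prj (D.Sm v)) (ContinuousLinearMap.id ℝ E) P = P →
      ∀ (G : E → ℝ) (ε : ℝ), SD i (K' * ‖P‖) 1 G →
        (∀ x ∈ ball (0 : E) 1, |D.N v x (ev P x) - G x| ≤ ε) → η * ‖P‖ ≤ ε := by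
  by_contra hcon
  push Not at hcon
  have hη : ∀ n : ℕ, (0 : ℝ) < 1 / ((n : ℝ) + 1) := fun n => by positivity
  choose v P hS hr G ε hG hb hlt using fun n : ℕ => hcon _ (hη n)
  have hε0 : ∀ n, 0 ≤ ε n := fun n => (abs_nonneg _).trans (hb n 0 (by simp))
  have hP0 : ∀ n, 0 < ‖P n‖ := by
    intro n
    by_contra hn
    have h0 : ‖P n‖ = 0 := le_antisymm (not_lt.1 hn) (norm_nonneg _)
    have := hlt n
    rw [h0, mul_zero] at this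
    exact absurd (hε0 n) (not_le.2 this)
  set p : ℕ → Cf E W k := fun n => ‖P n‖⁻¹ • P n with hp
  have hp1 : ∀ n, ‖p n‖ = 1 := by
    intro n
    rw [hp]
    simp only [norm_smul, norm_inv, norm_norm]
    exact inv_mul_cancel₀ (hP0 n).ne'
  obtain ⟨w', θ, p', hθ, hN, hpl, hp'1, hp'2, hperp⟩ := H.extract v p hp1 (fun n => (hS n).smul _)
    (fun n => by rw [hp]; simp only [psh_smul]; rw [hr n])
  set F : ℕ → E → ℝ := fun n x => ‖P (θ n)‖⁻¹ * G (θ n) x with hF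
  have hFs : ∀ n, SD i |K'| 1 (F n) := by
    intro n
    refine ((hG (θ n)).smul (‖P (θ n)‖⁻¹)).mono ?_ le_rfl
    have := hP0 (θ n)
    rw [abs_of_nonneg (by positivity)]
    have e : ‖P (θ n)‖⁻¹ * (K' * ‖P (θ n)‖) = K' := by field_simp
    rw [e]
    exact le_abs_self _
  have hFl : TendstoUniformlyOn F (fun x => D.N w' x (ev p' x)) atTop (ball 0 1) := by
    refine unif_of_bound (b := fun n => 1 / ((n : ℝ) + 1)) tendsto_one_div_add_atTop_nhds_zero_nat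
      (fun n x hx => ?_) (unif_pair hN hpl)
    have hpos := hP0 (θ n)
    have e1 : F n x - D.N (v (θ n)) x (ev (p (θ n)) x) = - (‖P (θ n)‖⁻¹ *
        (D.N (v (θ n)) x (ev (P (θ n)) x) - G (θ n) x)) := by
      rw [hF, hp]
      simp only [ev_smul, map_smul, smul_eq_mul]
      ring
    rw [e1, abs_neg, abs_mul, abs_of_nonneg (by positivity)]
    have h1 := hb (θ n) x hx
    have h2 := (hlt (θ n)).le
    calc ‖P (θ n)‖⁻¹ * |D.N (v (θ n)) x (ev (P (θ n)) x) - G (θ n) x|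
        ≤ ‖P (θ n)‖⁻¹ * (1 / ((θ n : ℝ) + 1) * ‖P (θ n)‖) := by
          gcongr
          exact h1.trans h2
      _ = 1 / ((θ n : ℝ) + 1) := by field_simp
      _ ≤ 1 / ((n : ℝ) + 1) := by
          have : (n : ℝ) ≤ (θ n : ℝ) := by exact_mod_cast hθ.id_le n
          gcongr
  have hall : ∀ x0 ∈ ball (0 : E) 1, ev p' x0 = 0 := by
    intro x0 hx0
    exact hperp x0 (es4_at H h4 hA (hok.mono hk) (contDiff_ev p') hFs hFl hx0)
  have hz : p' = 0 := eq_zero_of_ev hp'2 one_pos hall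
  rw [hz, norm_zero] at hp'1
  exact zero_ne_one hp'1

end

/-- the choice of the length of the orbit, with `4 ≤ k` -/
theorem exists_len4 {lam Lam : ℝ} (hl0 : 0 < lam) (hl1 : lam < 1) (hL1 : 1 ≤ Lam) {e : ℝ}
    (he : 0 < e) : ∃ k : ℕ, 4 ≤ k ∧ ∀ n0 : ℕ, ∀ δ : ℝ, 0 < δ → δ ≤ 1 → ∃ n : ℕ, n0 ≤ n ∧
      (lam ^ k) ^ n ≤ δ ∧ Lam ^ n * δ ≤ Lam ^ (n0 + 1) * δ ^ (1 - e) := by
  obtain ⟨k, hk, h⟩ := exists_len hl0 hl1 hL1 he
  refine ⟨k + 1, by omega, fun n0 δ hδ hδ1 => ?_⟩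
  obtain ⟨n, h1, h2, h3⟩ := h n0 δ hδ hδ1
  refine ⟨n, h1, le_trans ?_ h2, h3⟩
  have h4 : lam ^ (k + 1) ≤ lam ^ k := pow_le_pow_of_le_one hl0.le hl1.le (Nat.le_succ k)
  exact pow_le_pow_left₀ (pow_nonneg hl0.le _) h4 n

/-- **LEMMA Q**, at the centre of the disc -/
theorem lemmaQ (D : ZDk k0 E W X) (h4 : D.lam ^ 4 * D.Lam < 1) {i0 : ℕ}
    (hA : ∀ i ≥ i0, AfC D i) : ∀ e : ℝ, 0 < e → ∀ r : ℝ, 0 < r → r ≤ 1 → ∀ M : ℕ → ℝ,
    ∃ C : ℝ, 0 ≤ C ∧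
    ∀ (v : X) (σ : E → W) (F : E → ℝ) (δ : ℝ), ContDiffOn ℝ ∞ σ (ball 0 r) →
      ContDiffOn ℝ ∞ F (ball 0 r) →
      (∀ k, ∀ x ∈ ball (0 : E) r, ‖iteratedFDeriv ℝ k σ x‖ ≤ M k) →
      (∀ k, ∀ x ∈ ball (0 : E) r, ‖iteratedFDeriv ℝ k F x‖ ≤ M k) → 0 < δ → δ ≤ 1 →
      (∀ x ∈ ball (0 : E) r, |D.N v x (σ x) - F x| ≤ δ) →
      ∃ s ∈ D.Sm v, ‖σ 0 - s‖ ≤ C * δ ^ (1 - e) := by
  intro e he r hr hr1 M
  have H := sBk D
  have hl0 := D.lam0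
  have hl1 := D.lam1
  have hL1 := D.Lam1
  have hc := one_le_cW W
  obtain ⟨k, hk, hlen⟩ := exists_len4 hl0 hl1 hL1 he
  obtain ⟨i, hi0, hok⟩ := exists_ok_ge D k i0
  obtain ⟨K, hK, hrec⟩ := H.recur hok
  obtain ⟨η, hη, hgap⟩ := gap H h4 (hA i hi0) hk hok K
  obtain ⟨KP, hKP⟩ := H.ph_pair k M
  obtain ⟨n0, hn0⟩ : ∃ n0 : ℕ, D.lam ^ n0 ≤ r := (exists_pow_lt_of_lt_one hr hl1).imp fun _ h => h.le
  set C2 : ℝ := |D.K| * (cW W * |M k|) + |M k + KP| with hC2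
  have hC20 : 0 ≤ C2 := by positivity
  refine ⟨cW W * (C2 + 1) / η * D.Lam ^ (n0 + 1), by positivity, ?_⟩
  intro v σ F δ hσ hF hσM hFM hδ hδ1 hsmall
  have hDK : 0 ≤ D.K := (norm_nonneg _).trans (D.bd v 0 (by simp))
  obtain ⟨n, hn, hn1, hn2⟩ := hlen n0 δ hδ hδ1
  have hPh := hKP v σ r hr1 hσ hσM
  set F1 : E → ℝ := fun x => F x - SBk.Ph D v x (σ x) with hF1
  have hF1s : SD k (M k + KP) r F1 := SD.sub ⟨hF, hFM k⟩ hPh
  set P : Cf E W k := tc k σ with hP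
  set G0 : E → ℝ := ev (tc k F1) with hG0
  have hPsy : Sy P := sy_tc k hr hσ
  have hPt : ∀ x ∈ ball (0 : E) r, ‖σ x - ev P x‖ ≤ M k * ‖x‖ ^ k := fun x hx => by
    rw [hP, ev_tc]
    exact ray_taylor k hσ (hσM k) x hx
  have hFt : ∀ x ∈ ball (0 : E) r, ‖F1 x - G0 x‖ ≤ (M k + KP) * ‖x‖ ^ k := fun x hx => by
    rw [hG0, ev_tc]
    exact ray_taylor k hF1s.1 hF1s.2 x hx
  have hP0 : ev P 0 = σ 0 := by
    have := hPt 0 (mem_ball_self hr)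
    rw [norm_zero, zero_pow (by omega), mul_zero] at this
    exact (sub_eq_zero.1 (norm_le_zero_iff.1 this)).symm
  have hG0s : SD i 0 1 G0 := by
    refine ⟨(contDiff_ev _).contDiffOn, fun x hx => ?_⟩
    have h1 := iter_ev (tc k F1) i (mem_ball_zero_iff.1 hx).le
    rwa [dC_zero hok.2.2.1, zero_mul] at h1
  obtain ⟨A, L, v', hch⟩ := SBk.exists_ch (D := D) v n
  have hlam : D.lam ^ n * 1 ≤ r := by
    rw [mul_one]
    exact (pow_le_pow_of_le_one hl0.le hl1.le hn).trans hn0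
  obtain ⟨G, hGs, hGe⟩ := hrec hch P 1 le_rfl G0 0 le_rfl (hG0s.mono le_rfl (hlam.trans hr1))
  rw [mul_zero, zero_add] at hGs
  set Q := SBk.pp D A L v' P with hQ
  have hbr : ∀ x ∈ ball (0 : E) 1, |D.N v' x (ev Q x) - G x| ≤ (C2 + 1) * δ := by
    intro x hx
    have hx1 : ‖x‖ < 1 := mem_ball_zero_iff.1 hx
    have hy : ‖A.symm x‖ ≤ D.lam ^ n := by
      refine (SBk.ch_A hch x).trans ?_
      calc D.lam ^ n * ‖x‖ ≤ D.lam ^ n * 1 := by gcongr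
        _ = _ := mul_one _
    have hyr : A.symm x ∈ ball (0 : E) r := by
      rw [mem_ball_zero_iff]
      calc ‖A.symm x‖ ≤ D.lam ^ n * ‖x‖ := SBk.ch_A hch x
        _ < D.lam ^ n * 1 := by gcongr
        _ ≤ r := hlam
    have hb := SBk.bracket (D := D) (P := P) (v := v) (σ := σ) (g := F (A.symm x))
      (δ := δ) (m := M k * ‖A.symm x‖ ^ k) (ball_subset_ball hr1 hyr) (hPt _ hyr) (hsmall _ hyr)
    have hb2 := hFt _ hyr
    rw [Real.norm_eq_abs] at hb2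
    have hpow : ‖A.symm x‖ ^ k ≤ δ := by
      calc ‖A.symm x‖ ^ k ≤ (D.lam ^ n) ^ k := by gcongr
        _ = (D.lam ^ k) ^ n := by rw [← pow_mul, ← pow_mul, mul_comm]
        _ ≤ δ := hn1
    have e1 : D.N v' x (ev Q x) - G x =
        (D.N v (A.symm x) (prj (D.Sm v) (ev P (A.symm x))) - F1 (A.symm x)) +
          (F1 (A.symm x) - G0 (A.symm x)) := by
      rw [hGe x hx]
      ring
    rw [e1]
    have hn3 : 0 ≤ ‖A.symm x‖ ^ k := by positivity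
    have b1 : D.K * (cW W * (M k * ‖A.symm x‖ ^ k)) ≤ |D.K| * (cW W * |M k|) * δ := by
      have c1 : M k * ‖A.symm x‖ ^ k ≤ |M k| * δ :=
        mul_le_mul (le_abs_self _) hpow hn3 (abs_nonneg _)
      calc D.K * (cW W * (M k * ‖A.symm x‖ ^ k)) ≤ |D.K| * (cW W * (|M k| * δ)) := by
            rw [abs_of_nonneg hDK]
            gcongr
        _ = _ := by ring
    have b2 : (M k + KP) * ‖A.symm x‖ ^ k ≤ |M k + KP| * δ :=
      mul_le_mul (le_abs_self _) hpow hn3 (abs_nonneg _)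
    calc _ ≤ |D.N v (A.symm x) (prj (D.Sm v) (ev P (A.symm x))) - F1 (A.symm x)| +
          |F1 (A.symm x) - G0 (A.symm x)| := abs_add_le _ _
      _ ≤ (D.K * (cW W * (M k * ‖A.symm x‖ ^ k)) + δ) + (M k + KP) * ‖A.symm x‖ ^ k :=
          add_le_add hb hb2
      _ ≤ (|D.K| * (cW W * |M k|) * δ + δ) + |M k + KP| * δ := by gcongr
      _ = (C2 + 1) * δ := by rw [hC2]; ring
  have hη2 := hgap v' Q (hPsy.psh _ _) (SBk.pp_prj A L v' P) G ((C2 + 1) * δ) hGs hbr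
  have h1 := H.prj_le hch (σ 0)
  have h2 : ev Q 0 = prj (D.Sm v') (L (σ 0)) := by
    rw [hQ, SBk.ev_pp, map_zero, hP0]
  rw [← h2] at h1
  refine ⟨σ 0 - prj (D.Sm v) (σ 0), sub_prj_mem _ _, ?_⟩
  rw [sub_sub_cancel]
  have h3 : ‖Q‖ ≤ (C2 + 1) * δ / η := by
    rw [le_div_iff₀ hη, mul_comm]
    exact hη2
  calc ‖prj (D.Sm v) (σ 0)‖ ≤ cW W * D.Lam ^ n * ‖ev Q 0‖ := h1
    _ ≤ cW W * D.Lam ^ n * ((C2 + 1) * δ / η) := by
        gcongr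
        exact (norm_ev_zero_le Q).trans h3
    _ = cW W * (C2 + 1) / η * (D.Lam ^ n * δ) := by ring
    _ ≤ cW W * (C2 + 1) / η * (D.Lam ^ (n0 + 1) * δ ^ (1 - e)) := by gcongr
    _ = cW W * (C2 + 1) / η * D.Lam ^ (n0 + 1) * δ ^ (1 - e) := by ring


/-- **LEMMA Q**, at every point of a smaller disc -/
theorem lemmaQ_at (D : ZDk k0 E W X) (h4 : D.lam ^ 4 * D.Lam < 1) {i0 : ℕ}
    (hA : ∀ i ≥ i0, AfC D i) : ∀ e : ℝ, 0 < e → ∀ r r' : ℝ, r' < r → r ≤ 1 →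
    ∀ M : ℕ → ℝ, ∃ C : ℝ, 0 ≤ C ∧
    ∀ (v : X) (σ : E → W) (F : E → ℝ) (δ : ℝ), ContDiffOn ℝ ∞ σ (ball 0 r) →
      ContDiffOn ℝ ∞ F (ball 0 r) →
      (∀ k, ∀ x ∈ ball (0 : E) r, ‖iteratedFDeriv ℝ k σ x‖ ≤ M k) →
      (∀ k, ∀ x ∈ ball (0 : E) r, ‖iteratedFDeriv ℝ k F x‖ ≤ M k) → 0 < δ → δ ≤ 1 →
      (∀ x ∈ ball (0 : E) r, |D.N v x (σ x) - F x| ≤ δ) →
      ∀ q ∈ ball (0 : E) r', ∃ s ∈ D.Sm v, ‖σ q - s‖ ≤ C * δ ^ (1 - e) := by
  intro e he r r' hrr hr1 M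
  have hKb : 0 < D.Kb := lt_of_lt_of_le one_pos D.Kb1
  set ρ : ℝ := min 1 ((r - r') / D.Kb) with hρ
  have hρ0 : 0 < ρ := lt_min one_pos (div_pos (by linarith) hKb)
  have hρ1 : ρ ≤ 1 := min_le_left _ _
  have hρ2 : D.Kb * ρ ≤ r - r' := by
    have : ρ ≤ (r - r') / D.Kb := min_le_right _ _
    calc D.Kb * ρ ≤ D.Kb * ((r - r') / D.Kb) := by gcongr
      _ = r - r' := by field_simp
  -- the bounds of the data at the new base point
  set M1 : ℕ → ℝ := fun k => D.Kb * (|M k| * D.Kb ^ k) with hM1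
  set M2 : ℕ → ℝ := fun k => |M k| * D.Kb ^ k +
    ∑ j ∈ Finset.range (k + 1), (k.choose j : ℝ) * D.M j * M1 (k - j) with hM2
  obtain ⟨C, hC, hlem⟩ := lemmaQ D h4 hA e he ρ hρ0 hρ1 (fun k => max (M1 k) (M2 k))
  refine ⟨D.Kb * C, by positivity, ?_⟩
  intro v σ F δ hσ hF hσM hFM hδ hδ1 hsmall q hq
  have hqn : ‖q‖ ≤ r' := (mem_ball_zero_iff.1 hq).le
  have hq1 : q ∈ ball (0 : E) 1 := ball_subset_ball (hrr.le.trans hr1) hq
  obtain ⟨R, S, v', hBC⟩ := D.BC_ex v q hq1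
  obtain ⟨ee, hes, heb, heq⟩ := D.BC_N hBC
  have hRn : ‖(R.symm : E →L[ℝ] E)‖ ≤ D.Kb :=
    ContinuousLinearMap.opNorm_le_bound _ hKb.le (D.BC_R hBC).2
  have hSn : ‖(S : W →L[ℝ] W)‖ ≤ D.Kb :=
    ContinuousLinearMap.opNorm_le_bound _ hKb.le (D.BC_S hBC).1
  have hMp : ∀ k, M k * D.Kb ^ k ≤ |M k| * D.Kb ^ k := fun k => by
    have := le_abs_self (M k)
    gcongr
  obtain ⟨a1, a2, a3⟩ := aff_bound (q := q) (B := (R.symm : E →L[ℝ] E)) hRn hqn hρ2 hKb hσ hσM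
  obtain ⟨b1, b2, -⟩ := aff_bound (q := q) (B := (R.symm : E →L[ℝ] E)) hRn hqn hρ2 hKb hF hFM
  set σ' : E → W := fun y => (S : W →L[ℝ] W) (σ (q + (R.symm : E →L[ℝ] E) y)) with hσ'
  have hσ's : ContDiffOn ℝ ∞ σ' (ball 0 ρ) := (S : W →L[ℝ] W).contDiff.comp_contDiffOn a1
  have hσ'b : ∀ k, ∀ x ∈ ball (0 : E) ρ, ‖iteratedFDeriv ℝ k σ' x‖ ≤ M1 k := by
    intro k x hx
    refine (iter_comp_left isOpen_ball (S : W →L[ℝ] W) a1 hx k).trans ?_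
    exact mul_le_mul hSn ((a2 k x hx).trans (hMp k)) (norm_nonneg _) hKb.le
  have hsub : ball (0 : E) ρ ⊆ {x | x ∈ ball (0 : E) 1 ∧ q + R.symm x ∈ ball (0 : E) 1} :=
    fun y hy => ⟨ball_subset_ball hρ1 hy, ball_subset_ball hr1 (a3 y hy)⟩
  have hes' : ContDiffOn ℝ ∞ ee (ball 0 ρ) := hes.mono hsub
  have hg1 : ContDiffOn ℝ ∞ (fun y => ee y (σ' y)) (ball 0 ρ) := smooth_eval hes' hσ's
  have hg2 : ∀ k, ∀ x ∈ ball (0 : E) ρ, ‖iteratedFDeriv ℝ k (fun y => ee y (σ' y)) x‖ ≤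
      ∑ j ∈ Finset.range (k + 1), (k.choose j : ℝ) * D.M j * M1 (k - j) := by
    intro k x hx
    exact eval_bound isOpen_ball hes' hσ's
      (fun j _ z hz => heb j z (hsub hz).1 (hsub hz).2) (fun j _ z hz => hσ'b j z hz) hx
  set F' : E → ℝ := fun y => F (q + (R.symm : E →L[ℝ] E) y) + ee y (σ' y) with hF'
  have hF's : ContDiffOn ℝ ∞ F' (ball 0 ρ) := b1.add hg1
  have hF'b : ∀ k, ∀ x ∈ ball (0 : E) ρ, ‖iteratedFDeriv ℝ k F' x‖ ≤ M2 k := by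
    intro k x hx
    have h1 : SD k (|M k| * D.Kb ^ k) ρ (fun y => F (q + (R.symm : E →L[ℝ] E) y)) :=
      ⟨b1, fun y hy => (b2 k y hy).trans (hMp k)⟩
    exact (h1.add ⟨hg1, hg2 k⟩).2 x hx
  obtain ⟨s, hs, hsd⟩ := hlem v' σ' F' δ hσ's hF's
    (fun k x hx => (hσ'b k x hx).trans (le_max_left _ _))
    (fun k x hx => (hF'b k x hx).trans (le_max_right _ _)) hδ hδ1 (fun y hy => by
      have h1 := heq y (hsub hy).1 (hsub hy).2 (σ (q + R.symm y))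
      have h2 := hsmall _ (a3 y hy)
      have e1 : D.N v' y (σ' y) - F' y = D.N v (q + R.symm y) (σ (q + R.symm y)) -
          F (q + R.symm y) := by
        have e2 : D.N v' y (σ' y) = D.N v (q + R.symm y) (σ (q + R.symm y)) + ee y (σ' y) := h1
        have e3 : F' y = F (q + R.symm y) + ee y (σ' y) := rfl
        rw [e2, e3]
        ring
      rw [e1]
      exact h2)
  have hs' : S (S.symm s) ∈ D.Sm v' := by
    rw [ContinuousLinearEquiv.apply_symm_apply]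
    exact hs
  refine ⟨S.symm s, (D.sm_bc hBC _).2 hs', ?_⟩
  have e4 : σ q - S.symm s = S.symm (σ' 0 - s) := by
    rw [map_sub, hσ']
    simp
  rw [e4]
  calc ‖S.symm (σ' 0 - s)‖ ≤ D.Kb * ‖σ' 0 - s‖ := (D.BC_S hBC).2 _
    _ ≤ D.Kb * (C * δ ^ (1 - e)) := by gcongr
    _ = D.Kb * C * δ ^ (1 - e) := by ring

end Vale.Agent.P207.H387.Q4
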